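import Vale.Agent.P097.TC.Defs5
import Vale.Agent.P097.H983.Har

/-!
# P097 / case [c] / (A5): the distance to the walls on the vertical over a real label and on the
axis of the quadrant (straight coordinates) are comparable
-/

set_option linter.all false

open Complex Metric Filter Topology Set
open scoped ComplexConjugate

namespace Vale.Agent.P097.H613

open Vale.Agent.P097.TC Vale.Agent.P097.H85 Vale.Agent.P097.H929 Vale.Agent.P097.A5
open Vale.Agent.P097.H983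

/-- the axis point of the quadrant over `(y, u)`, depth `t` -/
noncomputable def zp (P : ℝ → ℂ) (Ψ : ℂ → ℂ) (y u t : ℝ) : ℂ × ℂ :=
  (((y - (P u).re : ℝ) : ℂ) - t * I + Ψ (u + t * I), (u : ℂ) + t * I)

/-- straight coordinates, no scale -/
noncomputable def S0 (P : ℝ → ℂ) (Ψ : ℂ → ℂ) (y u : ℝ) (z : ℂ × ℂ) : ℂ × ℂ :=
  (((y - (P u).re : ℝ) : ℂ) + z.1 + Ψ (u + z.2), (u : ℂ) + z.2)

theorem S0_ax (P : ℝ → ℂ) (Ψ : ℂ → ℂ) (y u t : ℝ) :
    S0 P Ψ y u (-((t : ℂ) * I), (t : ℂ) * I) = zp P Ψ y u t := by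
  unfold S0 zp
  simp only [Prod.mk.injEq, and_true]
  ring

variable {Λ H : ℝ} {F q : ℂ → ℂ} {b m : ℝ} {Ψ : ℂ → ℂ} {Mj Mk B : Set (ℂ × ℂ)}
  {A : Set ℝ} {P : ℝ → ℂ} {c k : ℝ → ℝ} {K y₀ u₀ σ s : ℝ} {al p th : ℂ × ℂ → ℂ} {J : ℂ → ℂ}

/-- the straight coordinates map small quadrants into the domain of the position -/
theorem S0_mem (W : W5 Λ H F q b m Ψ Mj Mk B A P c k K y₀ u₀ σ s al p th J) :
    ∃ ρ > 0, ∀ u ∈ A, ∀ y : ℝ, ∀ z : ℂ × ℂ, z.1.im < 0 → 0 < z.2.im → ‖z‖ < ρ →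
      S0 P Ψ y u z ∈ Dm Mj Mk ∧ DifferentiableAt ℂ (S0 P Ψ y u) z := by
  obtain ⟨ρ₁, hρ₁, h1⟩ := W.Uj.cmp 1 one_pos 1 one_pos
  obtain ⟨ρ₂, hρ₂, h2⟩ := W.Uk.cmp 1 one_pos 1 one_pos
  have hbm := W.bm
  refine ⟨min (min ρ₁ ρ₂) (m - b), lt_min (lt_min hρ₁ hρ₂) (by linarith), ?_⟩
  intro u hu y z hz1 hz2 hz
  have hz3 : ‖z.1‖ < min (min ρ₁ ρ₂) (m - b) := (norm_fst_le z).trans_lt hz
  have hz4 : ‖z.2‖ < min (min ρ₁ ρ₂) (m - b) := (norm_snd_le z).trans_lt hz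
  have a1 : ‖z.2‖ < ρ₁ := hz4.trans_le ((min_le_left _ _).trans (min_le_left _ _))
  have a2 : ‖z.2‖ < ρ₂ := hz4.trans_le ((min_le_left _ _).trans (min_le_right _ _))
  have a3 : ‖z.1‖ < m - b := hz3.trans_le (min_le_right _ _)
  have e2 : ((u : ℂ) + z.2).re - u = z.2.re := by simp
  have e3 : ((u : ℂ) + z.2).im = z.2.im := by simp
  have r1 : |((u : ℂ) + z.2).re - u| < ρ₁ := by
    rw [e2]; exact (Complex.abs_re_le_norm _).trans_lt a1
  have r2 : |((u : ℂ) + z.2).re - u| < ρ₂ := by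
    rw [e2]; exact (Complex.abs_re_le_norm _).trans_lt a2
  have i0 : 0 < ((u : ℂ) + z.2).im := by rw [e3]; exact hz2
  have i1 : ((u : ℂ) + z.2).im < ρ₁ := by
    rw [e3]; exact (le_abs_self _).trans_lt ((Complex.abs_im_le_norm _).trans_lt a1)
  have i2 : ((u : ℂ) + z.2).im < ρ₂ := by
    rw [e3]; exact (le_abs_self _).trans_lt ((Complex.abs_im_le_norm _).trans_lt a2)
  have hm := (h1 u hu).bdd _ r1 i0 i1
  have t1 : (((y - (P u).re : ℝ) : ℂ) + z.1 + Ψ (u + z.2)).im = z.1.im + (Ψ (u + z.2)).im := by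
    rw [add_im, add_im, ofReal_im, zero_add]
  have hzi : -(m - b) < z.1.im := by
    have := (abs_le.1 (Complex.abs_im_le_norm z.1)).1
    linarith
  have t2 : b < (((y - (P u).re : ℝ) : ℂ) + z.1 + Ψ (u + z.2)).im := by rw [t1]; linarith
  have t3 : (((y - (P u).re : ℝ) : ℂ) + z.1 + Ψ (u + z.2)).im < (Ψ (u + z.2)).im := by
    rw [t1]; linarith
  refine ⟨⟨⟨(h1 u hu).base _ _ r1 i0 i1 t2 t3, (h2 u hu).base _ _ r2 i0 i2 t2 t3⟩, ?_⟩, ?_⟩
  · show (u : ℂ) + z.2 ≠ 0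
    intro h0
    rw [h0] at i0
    simp at i0
  · have hΨ : DifferentiableAt ℂ Ψ ((u : ℂ) + z.2) :=
      ((h1 u hu).hol).differentiableAt ((isOpen_box u ρ₁).mem_nhds ⟨r1, i0, i1⟩)
    have hl : DifferentiableAt ℂ (fun z : ℂ × ℂ => (u : ℂ) + z.2) z := by fun_prop
    have h5 : DifferentiableAt ℂ (fun z : ℂ × ℂ => Ψ ((u : ℂ) + z.2)) z :=
      DifferentiableAt.comp z (f := fun z : ℂ × ℂ => (u : ℂ) + z.2) hΨ hl
    have h6 : DifferentiableAt ℂ (fun z : ℂ × ℂ => ((y - (P u).re : ℝ) : ℂ) + z.1) z := by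
      fun_prop
    exact (h6.add h5).prodMk hl

/-- two-sided balls around the points of the vertical -/
theorem ball_vp (W : W5 Λ H F q b m Ψ Mj Mk B A P c k K y₀ u₀ σ s al p th J) :
    ∃ κ > 0, κ ≤ 1 ∧ ∃ τ > 0, ∀ u ∈ A, ∀ y : ℝ, ∀ t : ℝ, 0 < t → t < τ →
      ball (vp P y u t) (κ * t) ⊆ Dm Mj Mk := by
  obtain ⟨T, hT⟩ := W.Uj.bd
  obtain ⟨δ, hδ, hcone⟩ := W.coneU 1 one_pos
  have hT0 : 0 ≤ T := (abs_nonneg _).trans (hT u₀ W.u0).1
  have hK := W.K0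
  obtain ⟨m₀, hm₀, hm⟩ : ∃ m₀ > 0, ∀ u ∈ A, b + m₀ ≤ (P u).im := by
    obtain ⟨x, hx, hmin⟩ := W.cA.exists_isMinOn ⟨u₀, W.u0⟩ W.cR
    refine ⟨(P x).im - b, by linarith [W.hb x hx], fun u hu => ?_⟩
    have := hmin hu
    simp only [mem_setOf_eq] at this
    linarith
  obtain ⟨m₁, hm₁, hu1⟩ : ∃ m₁ > 0, ∀ u ∈ A, m₁ ≤ |u| := by
    obtain ⟨x, hx, hmin⟩ := W.cA.exists_isMinOn ⟨u₀, W.u0⟩ (continuous_abs.continuousOn)
    exact ⟨|x|, abs_pos.2 (W.uz x hx), fun u hu => hmin hu⟩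
  set κ : ℝ := 1 / (2 * (T + K + 2)) with hκ
  have hD : 0 < T + K + 2 := by linarith
  have hκ0 : 0 < κ := by positivity
  have hκ1 : κ * (T + K + 2) = 1 / 2 := by rw [hκ]; field_simp
  have hκ2 : κ ≤ 1 := by nlinarith
  refine ⟨κ, hκ0, hκ2, min (min δ m₁) (m₀ / 2), by positivity, ?_⟩
  intro u hu y t ht0 ht z hz
  have ht1 : t < δ := ht.trans_le ((min_le_left _ _).trans (min_le_left _ _))
  have ht2 : t < m₁ := ht.trans_le ((min_le_left _ _).trans (min_le_right _ _))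
  have ht3 : t < m₀ / 2 := ht.trans_le (min_le_right _ _)
  have hκt : κ * t ≤ t := by nlinarith
  have hz' : ‖z - vp P y u t‖ < κ * t := by rwa [mem_ball, dist_eq_norm] at hz
  rw [Prod.norm_def, max_lt_iff] at hz'
  have g1 : ‖z.1 - ((y : ℂ) + ((P u).im - t : ℝ) * I)‖ < κ * t := hz'.1
  have g2 : ‖z.2 - (u : ℂ)‖ < κ * t := hz'.2
  have i1 : |z.1.im - ((P u).im - t)| < κ * t := by
    have := (Complex.abs_im_le_norm _).trans_lt g1
    simpa using this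
  have i1' := abs_lt.1 i1
  have hv : ((u : ℂ) + (z.2 - u)) = z.2 := by ring
  have hB : (z.1, (u : ℂ) + (z.2 - u)) ∈ B := by
    refine hcone u hu (z.2 - u) (g2.trans (by linarith)) z.1 ?_ ?_
    · have := hm u hu
      linarith [i1'.1]
    · have c1 : -(T * (κ * t)) ≤ c u * (z.2 - u).re := by
        have h1 : |c u * (z.2 - u).re| ≤ T * (κ * t) := by
          rw [abs_mul]
          exact mul_le_mul (hT u hu).1 ((Complex.abs_re_le_norm _).trans g2.le) (abs_nonneg _) hT0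
        linarith [(abs_le.1 h1).1]
      have c2 : K * |(z.2 - u).im| ≤ K * (κ * t) :=
        mul_le_mul_of_nonneg_left ((Complex.abs_im_le_norm _).trans g2.le) hK.le
      have c3 : κ * t * (T + K + 2) = t / 2 := by
        rw [mul_right_comm, hκ1]; ring
      nlinarith [i1'.2]
  rw [hv] at hB
  refine ⟨⟨W.Bj hB, W.Bk hB⟩, ?_⟩
  show z.2 ≠ 0
  intro h0
  rw [h0, zero_sub, norm_neg, norm_real, Real.norm_eq_abs] at g2
  have := hu1 u hu
  linarith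

/-- the point of the quadrant next to the vertical, in straight coordinates -/
theorem sq_point (W : W5 Λ H F q b m Ψ Mj Mk B A P c k K y₀ u₀ σ s al p th J) {κ₁ : ℝ}
    (hκ₁ : 0 < κ₁) (hκ₁1 : κ₁ ≤ 1) :
    ∃ κ > 0, κ ≤ κ₁ / 2 ∧ κ ≤ 1 / 2 ∧ ∃ τ > 0, ∀ u ∈ A, ∀ y t : ℝ, 0 < t → t < τ →
      ∃ zq : ℂ × ℂ, S0 P Ψ y u zq =
        ((y : ℂ) + ((P u).im - t : ℝ) * I, (u : ℂ) + ((κ * t : ℝ) : ℂ) * I) ∧
        zq.1.im ≤ -(t / 2) ∧ κ * t ≤ zq.2.im ∧ ‖zq‖ ≤ 2 * t := by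
  obtain ⟨T, hT⟩ := W.Uj.bd
  have hT0 : 0 ≤ T := (abs_nonneg _).trans (hT u₀ W.u0).1
  obtain ⟨ρ₂, hρ₂, hcmp⟩ := W.Uj.cmp 1 one_pos 1 one_pos
  set κ : ℝ := min (κ₁ / 2) (1 / (2 * (2 * T + 2))) with hκ
  have hκ0 : 0 < κ := lt_min (by linarith) (by positivity)
  have hκ2 : κ ≤ κ₁ / 2 := min_le_left _ _
  have hκ3 : κ * (2 * T + 2) ≤ 1 / 2 := by
    have : κ ≤ 1 / (2 * (2 * T + 2)) := min_le_right _ _
    calc κ * (2 * T + 2) ≤ 1 / (2 * (2 * T + 2)) * (2 * T + 2) :=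
          mul_le_mul_of_nonneg_right this (by linarith)
      _ = 1 / 2 := by field_simp
  have hκ4 : κ ≤ 1 / 2 := by linarith
  refine ⟨κ, hκ0, hκ2, hκ4, ρ₂, hρ₂, ?_⟩
  intro u hu y t ht0 ht2
  have hκt : 0 < κ * t := by positivity
  have hκt1 : κ * t ≤ t := by nlinarith
  refine ⟨(P u - t * I - Ψ (u + (κ * t : ℝ) * I), ((κ * t : ℝ) : ℂ) * I), ?_, ?_⟩
  · unfold S0
    simp only [Prod.mk.injEq, and_true]
    have : (P u : ℂ) = ((P u).re : ℂ) + ((P u).im : ℂ) * I := (re_add_im (P u)).symm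
    push_cast
    linear_combination this
  have hw : ((u : ℂ) + ((κ * t : ℝ) : ℂ) * I).re = u := by simp
  have hw' : ((u : ℂ) + ((κ * t : ℝ) : ℂ) * I).im = κ * t := by simp
  have hnt := (hcmp u hu).nt ((u : ℂ) + ((κ * t : ℝ) : ℂ) * I)
    (by rw [hw, sub_self, abs_zero]; exact hρ₂)
    (by rw [hw']; exact hκt) (by rw [hw']; linarith)
    (by rw [hw, hw', sub_self, abs_zero]; linarith)
  have e1 : ((u : ℂ) + ((κ * t : ℝ) : ℂ) * I) - u = ((κ * t : ℝ) : ℂ) * I := by ring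
  have hn1 : ‖((κ * t : ℝ) : ℂ) * I‖ = κ * t := by
    rw [norm_mul, norm_I, mul_one, norm_real, Real.norm_eq_abs, abs_of_pos hκt]
  rw [e1, hn1, one_mul] at hnt
  have hd : ‖(P u - t * I - Ψ (u + (κ * t : ℝ) * I)) - (-((t : ℂ) * I))‖ ≤
      (2 * T + 2) * (κ * t) := by
    have e2 : (P u - t * I - Ψ (u + (κ * t : ℝ) * I)) - (-((t : ℂ) * I)) =
        -(Ψ ((u : ℂ) + ((κ * t : ℝ) : ℂ) * I) - P u -
        (I * c u + k u) * (((κ * t : ℝ) : ℂ) * I)) -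
        (I * c u + k u) * (((κ * t : ℝ) : ℂ) * I) := by ring
    rw [e2]
    have h1 : ‖(I * (c u : ℂ) + (k u : ℂ)) * (((κ * t : ℝ) : ℂ) * I)‖ ≤ (2 * T) * (κ * t) := by
      rw [norm_mul, hn1]
      refine mul_le_mul_of_nonneg_right ?_ hκt.le
      refine (norm_add_le _ _).trans ?_
      rw [norm_mul, norm_I, one_mul, norm_real, norm_real, Real.norm_eq_abs, Real.norm_eq_abs]
      linarith [(hT u hu).1, (hT u hu).2]
    refine (norm_sub_le _ _).trans ?_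
    rw [norm_neg]
    linarith
  have hd2 : ‖(P u - t * I - Ψ (u + (κ * t : ℝ) * I)) - (-((t : ℂ) * I))‖ ≤ t / 2 := by
    refine hd.trans ?_
    nlinarith
  have hn2 : ‖(-((t : ℂ) * I))‖ = t := by
    rw [norm_neg, norm_mul, norm_I, mul_one, norm_real, Real.norm_eq_abs, abs_of_pos ht0]
  refine ⟨?_, ?_, ?_⟩
  · have h1 := (Complex.abs_im_le_norm _).trans hd2
    have h2 : ((P u - t * I - Ψ (u + (κ * t : ℝ) * I)) - (-((t : ℂ) * I))).im =
        (P u - t * I - Ψ (u + (κ * t : ℝ) * I)).im + t := by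
      rw [sub_im, neg_im]; simp
    rw [h2] at h1
    show (P u - t * I - Ψ (u + (κ * t : ℝ) * I)).im ≤ -(t / 2)
    linarith [(abs_le.1 h1).2]
  · show κ * t ≤ (((κ * t : ℝ) : ℂ) * I).im
    simp
  · rw [Prod.norm_def]
    refine max_le ?_ ?_
    · show ‖P u - t * I - Ψ (u + (κ * t : ℝ) * I)‖ ≤ 2 * t
      have h1 := norm_add_le ((P u - t * I - Ψ (u + (κ * t : ℝ) * I)) - (-((t : ℂ) * I)))
        (-((t : ℂ) * I))
      rw [sub_add_cancel] at h1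
      linarith
    · show ‖((κ * t : ℝ) : ℂ) * I‖ ≤ 2 * t
      rw [hn1]; linarith

/-- the step in the two-sided ball -/
theorem ball_step (W : W5 Λ H F q b m Ψ Mj Mk B A P c k K y₀ u₀ σ s al p th J) {κ κ₁ y u t : ℝ}
    (hκ : 0 < κ) (hκκ : κ ≤ κ₁ / 2) (ht : 0 < t) (hb : ball (vp P y u t) (κ₁ * t) ⊆ Dm Mj Mk) :
    H - |(th (vp P y u t)).im| ≤ 3 * (H - |(th ((y : ℂ) + ((P u).im - t : ℝ) * I,
        (u : ℂ) + ((κ * t : ℝ) : ℂ) * I)).im|) ∧
      H - |(th ((y : ℂ) + ((P u).im - t : ℝ) * I, (u : ℂ) + ((κ * t : ℝ) : ℂ) * I)).im| ≤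
        3 * (H - |(th (vp P y u t)).im|) := by
  set qq : ℂ × ℂ := ((y : ℂ) + ((P u).im - t : ℝ) * I, (u : ℂ) + ((κ * t : ℝ) : ℂ) * I) with hqq
  have hκt : 0 < κ * t := by positivity
  have hdq : ‖qq - vp P y u t‖ = κ * t := by
    have : qq - vp P y u t = (0, ((κ * t : ℝ) : ℂ) * I) := by
      unfold vp
      rw [hqq]
      ext <;> simp
    rw [this, Prod.norm_def]
    show max ‖(0 : ℂ)‖ ‖((κ * t : ℝ) : ℂ) * I‖ = κ * t
    rw [norm_mul, norm_I, mul_one, norm_real, Real.norm_eq_abs, abs_of_pos hκt, norm_zero]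
    exact max_eq_right hκt.le
  have h2 : κ * t ≤ κ₁ * t / 2 := by
    have := mul_le_mul_of_nonneg_right hκκ ht.le
    linarith
  have hκ1t : 0 < κ₁ * t := by linarith
  have hlt : ‖qq - vp P y u t‖ < κ₁ * t := by rw [hdq]; linarith
  have wb := wall_ball (θ := th) (c := vp P y u t) (z := qq) (R := κ₁ * t) (H := H)
    (W.dth.mono hb) (fun z hz => W.mem z (hb hz)) hlt
  rw [hdq] at wb
  have pv : 0 < H - |(th (vp P y u t)).im| := by
    have : |(th (vp P y u t)).im| < H := W.mem _ (hb (mem_ball_self hκ1t))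
    linarith
  have pq : 0 < H - |(th qq).im| := by
    have : |(th qq).im| < H := W.mem _ (hb (by rw [mem_ball, dist_eq_norm]; exact hlt))
    linarith
  set X := H - |(th (vp P y u t)).im| with hX
  set Y := H - |(th qq).im| with hY
  set a := κ₁ * t with ha
  set d := κ * t with hd
  have key : ∀ {X Y : ℝ}, 0 < X → 0 < Y → (a - d) * X ≤ (a + d) * Y → X ≤ 3 * Y := by
    intro X Y hX hY h
    have h3 : a / 2 * X ≤ (a - d) * X := mul_le_mul_of_nonneg_right (by linarith) hX.le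
    have h4 : (a + d) * Y ≤ a / 2 * (3 * Y) := by
      have := mul_le_mul_of_nonneg_right (show a + d ≤ 3 * (a / 2) by linarith) hY.le
      linarith
    exact le_of_mul_le_mul_left (h3.trans (h.trans h4)) (by linarith)
  exact ⟨key pv pq wb.1, key pq pv wb.2⟩

/-- the step in the quadrant -/
theorem quad_step (W : W5 Λ H F q b m Ψ Mj Mk B A P c k K y₀ u₀ σ s al p th J) {κ y u t : ℝ}
    (hκ : 0 < κ) (hκ1 : κ ≤ 1 / 2) (ht : 0 < t)
    (hS : ∀ z : ℂ × ℂ, z.1.im < 0 → 0 < z.2.im → ‖z‖ < 40 * t →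
      S0 P Ψ y u z ∈ Dm Mj Mk ∧ DifferentiableAt ℂ (S0 P Ψ y u) z) {zq : ℂ × ℂ}
    (hqi : zq.1.im ≤ -(t / 2)) (hq2 : κ * t ≤ zq.2.im) (hqn : ‖zq‖ ≤ 2 * t) :
    κ * (H - |(th (zp P Ψ y u t)).im|) ≤ 972 * (H - |(th (S0 P Ψ y u zq)).im|) ∧
      κ * (H - |(th (S0 P Ψ y u zq)).im|) ≤ 972 * (H - |(th (zp P Ψ y u t)).im|) := by
  set g : ℂ × ℂ → ℂ := fun z => th (S0 P Ψ y u z) with hg
  have hQ : ∀ z ∈ QT 0 0 (10 * 2 * t), S0 P Ψ y u z ∈ Dm Mj Mk ∧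
      DifferentiableAt ℂ (S0 P Ψ y u) z := by
    rintro z ⟨h1, h2, h3⟩
    rw [dist_zero_right] at h3
    exact hS z (by linarith) h2 (by linarith)
  have hDo : IsOpen (Dm Mj Mk) :=
    (W.rhj.dn.op.inter W.rhk.dn.op).inter (isOpen_ne_fun continuous_snd continuous_const)
  have hgd : DifferentiableOn ℂ g (QT 0 0 (10 * 2 * t)) := by
    intro z hz
    obtain ⟨h1, h2⟩ := hQ z hz
    have h3 : DifferentiableAt ℂ th (S0 P Ψ y u z) := W.dth.differentiableAt (hDo.mem_nhds h1)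
    exact (DifferentiableAt.comp z h3 h2).differentiableWithinAt
  have hgs : ∀ z ∈ QT 0 0 (10 * 2 * t), |(g z).im| < H := fun z hz => W.mem _ (hQ z hz).1
  set za : ℂ × ℂ := (-((t : ℂ) * I), (t : ℂ) * I) with hza
  have ha1 : 1 * t ≤ -za.1.im := by simp [hza]
  have ha2 : 1 * t ≤ za.2.im := by simp [hza]
  have hna : ‖za‖ ≤ 2 * t := by
    rw [Prod.norm_def, hza]
    simp only [norm_neg, norm_mul, norm_I, mul_one, norm_real, Real.norm_eq_abs, abs_of_pos ht,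
      max_self]
    linarith
  have hκt : κ * t ≤ t / 2 := by
    have := mul_le_mul_of_nonneg_right hκ1 ht.le
    linarith
  have hq1 : κ * t ≤ -zq.1.im := by linarith
  have hκ2 : κ ≤ 1 := by linarith
  have w1 := (wall_quad (θ := g) (p := 0) (b := za) (z := zq) (H := H) (X := 2) (ρ := t) (om := κ)
    (om0 := 1) (by norm_num) ht hκ hκ2 one_pos le_rfl ha1 ha2 (by rw [dist_zero_right]; exact hna)
    hq1 hq2 (by rw [dist_zero_right]; exact hqn) hgd hgs).1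
  have w2 := (wall_quad (θ := g) (p := 0) (b := zq) (z := za) (H := H) (X := 2) (ρ := t) (om := 1)
    (om0 := κ) (by norm_num) ht one_pos le_rfl hκ hκ2 hq1 hq2 (by rw [dist_zero_right]; exact hqn)
    ha1 ha2 (by rw [dist_zero_right]; exact hna) hgd hgs).1
  have ga : g za = th (zp P Ψ y u t) := by
    show th (S0 P Ψ y u za) = _
    rw [hza, S0_ax]
  rw [ga] at w1 w2
  have gq : g zq = th (S0 P Ψ y u zq) := rfl
  rw [gq] at w1 w2
  constructor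
  · linarith
  · linarith

/-- **the distances to the walls on the vertical over a real label and on the axis of the quadrant
are comparable** -/
theorem harn_st (W : W5 Λ H F q b m Ψ Mj Mk B A P c k K y₀ u₀ σ s al p th J) :
    ∃ C ≥ 1, ∃ τ > 0, ∀ u ∈ A, ∀ y t : ℝ, 0 < t → t < τ →
      H - |(th (zp P Ψ y u t)).im| ≤ C * (H - |(th (vp P y u t)).im|) ∧
      H - |(th (vp P y u t)).im| ≤ C * (H - |(th (zp P Ψ y u t)).im|) := by
  obtain ⟨ρ, hρ, hS⟩ := S0_mem W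
  obtain ⟨κ₁, hκ₁, hκ₁1, τ₁, hτ₁, hball⟩ := ball_vp W
  obtain ⟨κ, hκ0, hκκ, hκ2, τ₂, hτ₂, hpt⟩ := sq_point W hκ₁ hκ₁1
  have hκi : 0 < κ⁻¹ := inv_pos.2 hκ0
  refine ⟨3 * (972 * κ⁻¹), ?_, min (min τ₁ τ₂) (ρ / 40), by positivity, ?_⟩
  · have : 1 ≤ κ⁻¹ := (one_le_inv₀ hκ0).2 (by linarith)
    linarith
  intro u hu y t ht0 ht
  have ht1 : t < τ₁ := ht.trans_le ((min_le_left _ _).trans (min_le_left _ _))
  have ht2 : t < τ₂ := ht.trans_le ((min_le_left _ _).trans (min_le_right _ _))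
  have ht3 : t < ρ / 40 := ht.trans_le (min_le_right _ _)
  obtain ⟨zq, q0, q1, q2, q3⟩ := hpt u hu y t ht0 ht2
  obtain ⟨v1, v2⟩ := ball_step W hκ0 hκκ ht0 (hball u hu y t ht0 ht1)
  obtain ⟨w1, w2⟩ := quad_step W hκ0 hκ2 ht0 (fun z h1 h2 h3 => hS u hu y z h1 h2 (by linarith))
    q1 q2 q3
  rw [q0] at w1 w2
  have key : ∀ {X Y : ℝ}, κ * X ≤ 972 * Y → X ≤ 972 * κ⁻¹ * Y := by
    intro X Y h
    calc X = κ⁻¹ * (κ * X) := by field_simp
      _ ≤ κ⁻¹ * (972 * Y) := mul_le_mul_of_nonneg_left h hκi.le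
      _ = 972 * κ⁻¹ * Y := by ring
  constructor
  · refine (key w1).trans ?_
    have := mul_le_mul_of_nonneg_left v2 (show 0 ≤ 972 * κ⁻¹ by positivity)
    linarith
  · refine v1.trans ?_
    have := key w2
    linarith

/-- walls on the vertical over a real label ⟹ walls on the axis of the quadrant -/
theorem walls_st (W : W5 Λ H F q b m Ψ Mj Mk B A P c k K y₀ u₀ σ s al p th J) {u : ℝ} (hu : u ∈ A)
    {y : ℝ} (h : Tendsto (fun S : ℝ => |(th (vp P y u S)).im|) (𝓝[>] 0) (𝓝 H)) :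
    Tendsto (fun t : ℝ => |(th (zp P Ψ y u t)).im|) (𝓝[>] 0) (𝓝 H) := by
  obtain ⟨C, hC, τ, hτ, hh⟩ := harn_st W
  have hlow : Tendsto (fun t : ℝ => H - C * (H - |(th (vp P y u t)).im|)) (𝓝[>] 0) (𝓝 H) := by
    have : Tendsto (fun t : ℝ => H - C * (H - |(th (vp P y u t)).im|)) (𝓝[>] 0)
        (𝓝 (H - C * (H - H))) := tendsto_const_nhds.sub ((tendsto_const_nhds.sub h).const_mul C)
    simpa using this
  have hev : ∀ᶠ t : ℝ in 𝓝[>] 0, 0 < t ∧ t < τ := by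
    filter_upwards [Ioo_mem_nhdsGT hτ] with t ht
    exact ht
  obtain ⟨ρ, hρ, hS⟩ := S0_mem W
  have hev2 : ∀ᶠ t : ℝ in 𝓝[>] 0, 0 < t ∧ t < ρ := by
    filter_upwards [Ioo_mem_nhdsGT hρ] with t ht
    exact ht
  refine tendsto_of_tendsto_of_tendsto_of_le_of_le' hlow tendsto_const_nhds ?_ ?_
  · filter_upwards [hev] with t ht
    have := (hh u hu y t ht.1 ht.2).1
    linarith
  · filter_upwards [hev2] with t ht
    rw [← S0_ax]
    have h1 := (hS u hu y (-((t : ℂ) * I), (t : ℂ) * I) (by simp [ht.1]) (by simp [ht.1]) (by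
      rw [Prod.norm_def]
      simp only [norm_neg, norm_mul, norm_I, mul_one, norm_real, Real.norm_eq_abs,
        abs_of_pos ht.1, max_self]
      exact ht.2)).1
    exact (W.mem _ h1 : |(th _).im| < H).le

end Vale.Agent.P097.H613
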